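import Mathlib
import Crest.Agent.Helper52.PP.Count
import Crest.Agent.Helper52.PP.Perm

/-!
# Row 55 / S0076, conditional infrastructure: BACKUP copies of two general host tools (helper5)

Backup copies (exact signatures of helper68's request on the board, 15 Nov 09:47Z) of
* `localAut_le_of_stab`  : the automorphisms of a sub-host `A ⊆ E₀` supported on a vertex set
  `U ⊇ vset A` number at most `2 (n)_{|U|} p^{|A|}`;
* `sunflower_of_stab`    : an injective family, indexed by `Perm (Fin M)`, of such automorphisms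
  gives `M! ≤ 2 (n)_{|U|} p^{|A|}`;
* `petalPerm` and its three lemmas (the permutation of `Fin n` that permutes `M` disjoint petals).
Nothing here proves a statement of the milestone table.
-/

set_option autoImplicit false
set_option linter.unusedVariables false

namespace Crest.Agent.Helper5.S0076

open Finset Crest.CombinatoricsR.RandomGraph Crest.Agent.Helper52.PP

/-- A permutation sending every slot of `A` into `A` stabilises `A`. -/
private lemma map_eq_of_forall_mem {n : ℕ} (σ : Equiv.Perm (Fin n)) (A : Finset (EdgeSlot n))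
    (h : ∀ s ∈ A, slotPerm σ s ∈ A) : A.map (slotPerm σ).toEmbedding = A := by
  apply Finset.eq_of_subset_of_card_le
  · intro t ht
    rw [Finset.mem_map] at ht
    obtain ⟨s, hs, rfl⟩ := ht
    exact h s hs
  · rw [Finset.card_map]

/-- A permutation fixing `vset A` pointwise fixes every slot of `A`. -/
private lemma slotPerm_eq_self_of_fix {n : ℕ} (τ : Equiv.Perm (Fin n)) (A : Finset (EdgeSlot n))
    (h : ∀ x ∈ vset A, τ x = x) (s : EdgeSlot n) (hs : s ∈ A) : slotPerm τ s = s := by
  apply Subtype.ext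
  rw [slotPerm_val]
  obtain ⟨a, b, hab⟩ : ∃ a b : Fin n, s.1 = s(a, b) := Sym2.ind (fun a b => ⟨a, b, rfl⟩) s.1
  have ha : a ∈ vset A := (mem_vset A a).2 ⟨s, hs, by rw [hab]; exact Sym2.mem_mk_left a b⟩
  have hb : b ∈ vset A := (mem_vset A b).2 ⟨s, hs, by rw [hab]; exact Sym2.mem_mk_right a b⟩
  rw [hab, Sym2.map_mk, h a ha, h b hb]

/-- At least `(n - |V|)!` permutations fix the finite set `V` pointwise. -/
private lemma factorial_le_card_fix' {n : ℕ} (V : Finset (Fin n)) :
    (n - V.card).factorial ≤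
      (Finset.univ.filter (fun σ : Equiv.Perm (Fin n) => ∀ x ∈ V, σ x = x)).card := by
  classical
  have hcard : Fintype.card (Equiv.Perm {x : Fin n // x ∉ V}) = (n - V.card).factorial := by
    rw [Fintype.card_perm, Fintype.card_subtype_compl, Fintype.card_fin, Fintype.card_coe]
  rw [← hcard, ← Finset.card_univ]
  apply Finset.card_le_card_of_injOn (fun τ => Equiv.Perm.ofSubtype τ)
  · intro τ _
    simp only [Finset.coe_filter, Finset.mem_univ, true_and, Set.mem_ofPred_eq]
    intro x hx
    exact Equiv.Perm.ofSubtype_apply_of_not_mem τ (fun hn => hn hx)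
  · intro τ _ τ' _ h
    exact Equiv.Perm.ofSubtype_injective h

/-- (A1) the thinkers' (E) in local form: `aut_U(A) ≤ 2 (n)_{|U|} p^{|A|}`. -/
theorem localAut_le_of_stab {n : ℕ} (E₀ : Finset (EdgeSlot n)) (p : ℝ) (hp0 : 0 ≤ p)
    (hstab : ∀ A ⊆ E₀, (((Finset.univ.filter (fun σ : Equiv.Perm (Fin n) =>
        A.map (slotPerm σ).toEmbedding = A)).card : ℕ) : ℝ)
          ≤ 2 * (n.factorial : ℝ) * p ^ A.card)
    (A : Finset (EdgeSlot n)) (hA : A ⊆ E₀) (U : Finset (Fin n)) (hU : vset A ⊆ U) :
    (((Finset.univ.filter (fun σ : Equiv.Perm (Fin n) =>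
        (∀ x, x ∉ U → σ x = x) ∧ A.map (slotPerm σ).toEmbedding = A)).card : ℕ) : ℝ)
      ≤ 2 * (n.descFactorial U.card : ℝ) * p ^ A.card := by
  classical
  set SU : Finset (Equiv.Perm (Fin n)) := Finset.univ.filter (fun σ : Equiv.Perm (Fin n) =>
        (∀ x, x ∉ U → σ x = x) ∧ A.map (slotPerm σ).toEmbedding = A) with hSU
  set FU : Finset (Equiv.Perm (Fin n)) :=
    Finset.univ.filter (fun τ : Equiv.Perm (Fin n) => ∀ x ∈ U, τ x = x) with hFU
  set ST : Finset (Equiv.Perm (Fin n)) := Finset.univ.filter (fun σ : Equiv.Perm (Fin n) =>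
        A.map (slotPerm σ).toEmbedding = A) with hST
  have hUn : U.card ≤ n := by
    have := Finset.card_le_univ U
    rwa [Fintype.card_fin] at this
  -- the product map is an injection `SU × FU → ST`
  have hprod : (SU ×ˢ FU).card ≤ ST.card := by
    apply Finset.card_le_card_of_injOn (fun q : Equiv.Perm (Fin n) × Equiv.Perm (Fin n) => q.1 * q.2)
    · intro q hq
      have hq' := Finset.mem_product.1 (Finset.mem_coe.1 hq)
      have h1 := (Finset.mem_filter.1 hq'.1).2
      have h2 := (Finset.mem_filter.1 hq'.2).2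
      apply Finset.mem_coe.2
      rw [hST, Finset.mem_filter]
      refine ⟨Finset.mem_univ _, ?_⟩
      apply map_eq_of_forall_mem
      intro s hs
      have hfix : slotPerm q.2 s = s :=
        slotPerm_eq_self_of_fix q.2 A (fun x hx => h2 x (hU hx)) s hs
      have hmul : slotPerm (q.1 * q.2) s = slotPerm q.1 (slotPerm q.2 s) := by
        rw [slotPerm_mul]; rfl
      rw [hmul, hfix]
      have hmem : slotPerm q.1 s ∈ A.map (slotPerm q.1).toEmbedding :=
        Finset.mem_map_of_mem _ hs
      rw [h1.2] at hmem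
      exact hmem
    · intro q hq q' hq' h
      have hq1 := Finset.mem_product.1 (Finset.mem_coe.1 hq)
      have hq2 := Finset.mem_product.1 (Finset.mem_coe.1 hq')
      have a1 := (Finset.mem_filter.1 hq1.1).2.1
      have b1 := (Finset.mem_filter.1 hq1.2).2
      have a2 := (Finset.mem_filter.1 hq2.1).2.1
      have b2 := (Finset.mem_filter.1 hq2.2).2
      have h' : q.1 * q.2 = q'.1 * q'.2 := h
      have hfst : q.1 = q'.1 := by
        apply Equiv.ext
        intro x
        by_cases hx : x ∈ U
        · have e1 : (q.1 * q.2) x = q.1 x := by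
            rw [Equiv.Perm.mul_apply, b1 x hx]
          have e2 : (q'.1 * q'.2) x = q'.1 x := by
            rw [Equiv.Perm.mul_apply, b2 x hx]
          rw [← e1, ← e2, h']
        · rw [a1 x hx, a2 x hx]
      have hsnd : q.2 = q'.2 := by
        rw [hfst] at h'
        exact mul_left_cancel h'
      exact Prod.ext hfst hsnd
  have h1 : (n - U.card).factorial ≤ FU.card := factorial_le_card_fix' U
  have h3 := hstab A hA
  have hfac := Nat.factorial_mul_descFactorial hUn
  have hpos : (0 : ℝ) < ((n - U.card).factorial : ℝ) := by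
    exact_mod_cast Nat.factorial_pos _
  have h4 : (SU.card : ℝ) * ((n - U.card).factorial : ℝ) ≤ 2 * (n.factorial : ℝ) * p ^ A.card := by
    refine le_trans ?_ h3
    have : SU.card * (n - U.card).factorial ≤ ST.card := by
      calc SU.card * (n - U.card).factorial ≤ SU.card * FU.card := Nat.mul_le_mul_left _ h1
        _ = (SU ×ˢ FU).card := (Finset.card_product SU FU).symm
        _ ≤ ST.card := hprod
    exact_mod_cast this
  rw [← hfac] at h4
  push_cast at h4
  have h5 : (SU.card : ℝ) * ((n - U.card).factorial : ℝ)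
      ≤ (2 * (n.descFactorial U.card : ℝ) * p ^ A.card) * ((n - U.card).factorial : ℝ) := by
    calc (SU.card : ℝ) * ((n - U.card).factorial : ℝ)
        ≤ 2 * (((n - U.card).factorial : ℝ) * (n.descFactorial U.card : ℝ)) * p ^ A.card := h4
      _ = (2 * (n.descFactorial U.card : ℝ) * p ^ A.card) * ((n - U.card).factorial : ℝ) := by
          ring
  exact le_of_mul_le_mul_right h5 hpos

/-- (A1, sunflower form) an injective family of local automorphisms indexed by `Perm (Fin M)`
gives `M! ≤ 2 (n)_{|U|} p^{|A|}`. -/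
theorem sunflower_of_stab {n : ℕ} (E₀ : Finset (EdgeSlot n)) (p : ℝ) (hp0 : 0 ≤ p)
    (hstab : ∀ A ⊆ E₀, (((Finset.univ.filter (fun σ : Equiv.Perm (Fin n) =>
        A.map (slotPerm σ).toEmbedding = A)).card : ℕ) : ℝ)
          ≤ 2 * (n.factorial : ℝ) * p ^ A.card)
    (A : Finset (EdgeSlot n)) (hA : A ⊆ E₀) (U : Finset (Fin n)) (hU : vset A ⊆ U) (M : ℕ)
    (σ : Equiv.Perm (Fin M) → Equiv.Perm (Fin n)) (hinj : Function.Injective σ)
    (hsupp : ∀ ρ x, x ∉ U → σ ρ x = x) (hfix : ∀ ρ, ∀ s ∈ A, slotPerm (σ ρ) s ∈ A) :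
    (M.factorial : ℝ) ≤ 2 * (n.descFactorial U.card : ℝ) * p ^ A.card := by
  classical
  refine le_trans ?_ (localAut_le_of_stab E₀ p hp0 hstab A hA U hU)
  have hcard : Fintype.card (Equiv.Perm (Fin M)) = M.factorial := by
    rw [Fintype.card_perm, Fintype.card_fin]
  have hle : (Finset.univ : Finset (Equiv.Perm (Fin M))).card ≤
      (Finset.univ.filter (fun τ : Equiv.Perm (Fin n) =>
        (∀ x, x ∉ U → τ x = x) ∧ A.map (slotPerm τ).toEmbedding = A)).card := by
    apply Finset.card_le_card_of_injOn σ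
    · intro ρ _
      apply Finset.mem_coe.2
      rw [Finset.mem_filter]
      exact ⟨Finset.mem_univ _, hsupp ρ, map_eq_of_forall_mem (σ ρ) A (hfix ρ)⟩
    · intro ρ _ ρ' _ h
      exact hinj h
  rw [Finset.card_univ, hcard] at hle
  exact_mod_cast hle

open Classical in
/-- (A2) the permutation of `Fin n` that permutes the `M` disjoint petals `g (i, ·)` by `ρ` and
fixes every point outside the range of `g`. -/
noncomputable def petalPerm {n M : ℕ} {D : Type} (g : Fin M × D → Fin n)
    (hg : Function.Injective g) (ρ : Equiv.Perm (Fin M)) : Equiv.Perm (Fin n) :=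
  Equiv.Perm.extendDomain (Equiv.prodCongr ρ (Equiv.refl D)) (Equiv.ofInjective g hg)

lemma petalPerm_apply {n M : ℕ} {D : Type} (g : Fin M × D → Fin n)
    (hg : Function.Injective g) (ρ : Equiv.Perm (Fin M)) (i : Fin M) (d : D) :
    petalPerm g hg ρ (g (i, d)) = g (ρ i, d) := by
  classical
  unfold petalPerm
  have h := Equiv.Perm.extendDomain_apply_image (Equiv.prodCongr ρ (Equiv.refl D))
    (Equiv.ofInjective g hg) (i, d)
  simpa using h

lemma petalPerm_apply_of_not_range {n M : ℕ} {D : Type} (g : Fin M × D → Fin n)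
    (hg : Function.Injective g) (ρ : Equiv.Perm (Fin M)) (x : Fin n) (hx : x ∉ Set.range g) :
    petalPerm g hg ρ x = x := by
  classical
  unfold petalPerm
  exact Equiv.Perm.extendDomain_apply_not_subtype _ _ hx

lemma petalPerm_injective {n M : ℕ} {D : Type} (g : Fin M × D → Fin n)
    (hg : Function.Injective g) [Nonempty D] : Function.Injective (petalPerm g hg) := by
  intro ρ ρ' h
  obtain ⟨d⟩ := ‹Nonempty D›
  apply Equiv.ext
  intro i
  have h1 := petalPerm_apply g hg ρ i d
  have h2 := petalPerm_apply g hg ρ' i d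
  rw [h] at h1
  have h3 : g (ρ i, d) = g (ρ' i, d) := by rw [← h1, ← h2]
  exact (Prod.ext_iff.1 (hg h3)).1

end Crest.Agent.Helper5.S0076
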