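import Mathlib
import Crest.Agent.Helper52.PP.Count

/-!
# Row 55 / S0076, conditional dense-regime infrastructure: BACKUP copies of three leaves (helper5)

Backup copies (exact signatures of helper68's request on the board, 15 Nov 09:19Z) of
* `exists_orientation` (L2, Hakimi's orientation lemma via Hall's marriage theorem),
* `pow_le_exp_mul_descFactorial` (L5),
* `codeg_numeric` (L6).
Nothing here proves a statement of the milestone table; the files that use these leaves are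
conditional infrastructure for row 55.
-/

set_option autoImplicit false

namespace Crest.Agent.Helper5.S0076

open Finset Crest.CombinatoricsR.RandomGraph Crest.Agent.Helper52.PP

/-- (L2) Hakimi via Hall: if every set `A` of slots of `E₀` has at most `k * |vset A|` members, then
the slots of `E₀` can be oriented (each slot gets one of its two ends as its head) so that every
vertex is the head of at most `k` slots. -/
theorem exists_orientation {n : ℕ} (E₀ : Finset (EdgeSlot n)) (k : ℕ)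
    (hdens : ∀ A ⊆ E₀, A.card ≤ k * (vset A).card) :
    ∃ hd : EdgeSlot n → Fin n, (∀ s ∈ E₀, hd s ∈ s.1) ∧
      ∀ v, (E₀.filter (fun s => hd s = v)).card ≤ k := by
  classical
  -- Hall's theorem for `t s := (ends of s) × Fin k`
  let t : {s // s ∈ E₀} → Finset (Fin n × Fin k) :=
    fun s => (s.1.1 : Sym2 (Fin n)).toFinset ×ˢ (Finset.univ : Finset (Fin k))
  have hHall : ∀ S : Finset {s // s ∈ E₀}, S.card ≤ (S.biUnion t).card := by
    intro S
    set A : Finset (EdgeSlot n) := S.map (Function.Embedding.subtype _) with hA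
    have hAsub : A ⊆ E₀ := by
      intro s hs
      rw [hA, Finset.mem_map] at hs
      obtain ⟨x, _, rfl⟩ := hs
      exact x.2
    have hAcard : A.card = S.card := by rw [hA, Finset.card_map]
    have hsub : (vset A) ×ˢ (Finset.univ : Finset (Fin k)) ⊆ S.biUnion t := by
      intro x hx
      rw [Finset.mem_product] at hx
      obtain ⟨hx1, -⟩ := hx
      rw [mem_vset] at hx1
      obtain ⟨s, hsA, hvs⟩ := hx1
      rw [hA, Finset.mem_map] at hsA
      obtain ⟨y, hyS, rfl⟩ := hsA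
      rw [Finset.mem_biUnion]
      refine ⟨y, hyS, ?_⟩
      show x ∈ (y.1.1 : Sym2 (Fin n)).toFinset ×ˢ (Finset.univ : Finset (Fin k))
      rw [Finset.mem_product]
      exact ⟨Sym2.mem_toFinset.mpr hvs, Finset.mem_univ _⟩
    calc S.card = A.card := hAcard.symm
      _ ≤ k * (vset A).card := hdens A hAsub
      _ = ((vset A) ×ˢ (Finset.univ : Finset (Fin k))).card := by
          rw [Finset.card_product, Finset.card_univ, Fintype.card_fin, Nat.mul_comm]
      _ ≤ (S.biUnion t).card := Finset.card_le_card hsub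
  obtain ⟨f, hfinj, hft⟩ :=
    (Finset.all_card_le_biUnion_card_iff_exists_injective t).mp hHall
  refine ⟨fun s => if h : s ∈ E₀ then (f ⟨s, h⟩).1 else (Quot.out s.1).1, ?_, ?_⟩
  · intro s hs
    have h1 := hft ⟨s, hs⟩
    have h2 : (f ⟨s, hs⟩).1 ∈ (s.1 : Sym2 (Fin n)).toFinset := (Finset.mem_product.mp h1).1
    simp only [hs, dif_pos]
    exact Sym2.mem_toFinset.mp h2
  · intro v
    set F : Finset (EdgeSlot n) :=
      E₀.filter (fun s => (if h : s ∈ E₀ then (f ⟨s, h⟩).1 else (Quot.out s.1).1) = v) with hF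
    have hmem : ∀ s ∈ F, s ∈ E₀ := fun s hs => (Finset.mem_filter.mp hs).1
    have hhead : ∀ s (hs : s ∈ F), (f ⟨s, hmem s hs⟩).1 = v := by
      intro s hs
      have h := (Finset.mem_filter.mp hs).2
      simpa only [hmem s hs, dif_pos] using h
    have hcard : F.attach.card ≤ (Finset.univ : Finset (Fin k)).card := by
      apply Finset.card_le_card_of_injOn (fun s => (f ⟨s.1, hmem s.1 s.2⟩).2)
      · intro s _
        exact Finset.mem_coe.mpr (Finset.mem_univ _)
      · intro s _ s' _ hss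
        have h1 : f ⟨s.1, hmem s.1 s.2⟩ = f ⟨s'.1, hmem s'.1 s'.2⟩ := by
          apply Prod.ext
          · rw [hhead s.1 s.2, hhead s'.1 s'.2]
          · exact hss
        have h2 := hfinj h1
        have h3 : s.1 = s'.1 := Subtype.mk.inj h2
        exact Subtype.ext h3
    rw [Finset.card_attach, Finset.card_univ, Fintype.card_fin] at hcard
    exact hcard

/-- (L5) `n^v ≤ e^v · (n)_v` for `v ≤ n`. -/
theorem pow_le_exp_mul_descFactorial (n v : ℕ) (hv : v ≤ n) :
    (n : ℝ) ^ v ≤ Real.exp v * (n.descFactorial v : ℝ) := by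
  -- the natural number inequality `n^v * v! ≤ (n)_v * v^v`
  have key : ∀ i ∈ Finset.range v, n * (v - i) ≤ (n - i) * v := by
    intro i hi
    have hi' := Finset.mem_range.mp hi
    obtain ⟨a, rfl⟩ := Nat.exists_eq_add_of_lt hi'
    obtain ⟨c, rfl⟩ := Nat.exists_eq_add_of_le hv
    have h1 : i + a + 1 - i = a + 1 := by omega
    have h2 : i + a + 1 + c - i = a + 1 + c := by omega
    rw [h1, h2]
    nlinarith
  have hnat : n ^ v * v.factorial ≤ n.descFactorial v * v ^ v := by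
    have h1 : n ^ v * v.factorial = ∏ i ∈ Finset.range v, n * (v - i) := by
      rw [Finset.prod_mul_distrib, Finset.prod_const, Finset.card_range,
        ← Nat.descFactorial_eq_prod_range, Nat.descFactorial_self]
    have h2 : n.descFactorial v * v ^ v = ∏ i ∈ Finset.range v, (n - i) * v := by
      rw [Finset.prod_mul_distrib, Finset.prod_const, Finset.card_range,
        ← Nat.descFactorial_eq_prod_range]
    rw [h1, h2]
    exact Finset.prod_le_prod' key
  have hreal : (n : ℝ) ^ v * (v.factorial : ℝ) ≤ (n.descFactorial v : ℝ) * (v : ℝ) ^ v := by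
    exact_mod_cast hnat
  have hfpos : (0 : ℝ) < (v.factorial : ℝ) := by exact_mod_cast Nat.factorial_pos v
  have hexp : (v : ℝ) ^ v ≤ Real.exp v * (v.factorial : ℝ) := by
    have h := Real.pow_div_factorial_le_exp (v : ℝ) (Nat.cast_nonneg v) v
    rwa [div_le_iff₀ hfpos] at h
  have hd0 : (0 : ℝ) ≤ (n.descFactorial v : ℝ) := Nat.cast_nonneg _
  have h3 : (n : ℝ) ^ v * (v.factorial : ℝ)
      ≤ (Real.exp v * (n.descFactorial v : ℝ)) * (v.factorial : ℝ) := by
    calc (n : ℝ) ^ v * (v.factorial : ℝ) ≤ (n.descFactorial v : ℝ) * (v : ℝ) ^ v := hreal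
      _ ≤ (n.descFactorial v : ℝ) * (Real.exp v * (v.factorial : ℝ)) :=
          mul_le_mul_of_nonneg_left hexp hd0
      _ = (Real.exp v * (n.descFactorial v : ℝ)) * (v.factorial : ℝ) := by ring
  exact le_of_mul_le_mul_right h3 hfpos

/-- (L6) the numerical step of the biclique codegree bound. -/
theorem codeg_numeric (n b t : ℕ) (p C : ℝ) (hb : 1 ≤ b) (hn : 1 ≤ n) (hp0 : 0 < p)
    (hC : Real.exp 2 ≤ C)
    (hfac : (t.factorial : ℝ) ≤ 2 * (n.descFactorial (b + t) : ℝ) * p ^ (b * t))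
    (hH1 : (2 * n : ℝ) ≤ Real.exp (n * (C * p) ^ b)) :
    (t : ℝ) ≤ n * (C * p) ^ b := by
  by_contra hcon
  rw [not_le] at hcon
  have hC0 : 0 < C := lt_of_lt_of_le (Real.exp_pos 2) hC
  have hn0 : (0 : ℝ) < n := by exact_mod_cast hn
  have hCb : 0 < C ^ b := pow_pos hC0 b
  have hpb : 0 < p ^ b := pow_pos hp0 b
  set q : ℝ := (n : ℝ) * p ^ b with hq
  have hq0 : 0 < q := mul_pos hn0 hpb
  have hm : (n : ℝ) * (C * p) ^ b = q * C ^ b := by rw [hq, mul_pow]; ring
  rw [hm] at hcon hH1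
  have hqC0 : 0 < q * C ^ b := mul_pos hq0 hCb
  have ht0 : (0 : ℝ) < t := lt_trans hqC0 hcon
  have htne : t ≠ 0 := by
    intro h; rw [h] at ht0; simp at ht0
  have hfpos : (0 : ℝ) < (t.factorial : ℝ) := by exact_mod_cast Nat.factorial_pos t
  -- t^t ≤ e^t t!
  have hA : (t : ℝ) ^ t ≤ Real.exp t * (t.factorial : ℝ) := by
    have h := Real.pow_div_factorial_le_exp (t : ℝ) (Nat.cast_nonneg t) t
    rwa [div_le_iff₀ hfpos] at h
  -- (n)_{b+t} ≤ n^{b+t}
  have hB : (n.descFactorial (b + t) : ℝ) ≤ (n : ℝ) ^ (b + t) := by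
    exact_mod_cast Nat.descFactorial_le_pow n (b + t)
  have hpbt : 0 ≤ p ^ (b * t) := le_of_lt (pow_pos hp0 _)
  have hD : (t.factorial : ℝ) ≤ 2 * (n : ℝ) ^ b * q ^ t := by
    calc (t.factorial : ℝ) ≤ 2 * (n.descFactorial (b + t) : ℝ) * p ^ (b * t) := hfac
      _ ≤ 2 * (n : ℝ) ^ (b + t) * p ^ (b * t) := by
          apply mul_le_mul_of_nonneg_right _ hpbt
          exact mul_le_mul_of_nonneg_left hB (by norm_num)
      _ = 2 * (n : ℝ) ^ b * q ^ t := by
          rw [hq, mul_pow, pow_add, pow_mul]; ring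
  have hexp0 : 0 < Real.exp (t : ℝ) := Real.exp_pos _
  have hnb0 : 0 < (n : ℝ) ^ b := pow_pos hn0 b
  have htt0 : 0 < (t : ℝ) ^ t := pow_pos ht0 t
  -- (q C^b)^t < t^t
  have hlt : (q * C ^ b) ^ t < (t : ℝ) ^ t := pow_lt_pow_left₀ hcon (le_of_lt hqC0) htne
  -- (C^b)^t < e^t * 2 * n^b
  have hE : (C ^ b) ^ t < Real.exp t * (2 * (n : ℝ) ^ b) := by
    have h1 : (t : ℝ) ^ t * (C ^ b) ^ t ≤ Real.exp t * (2 * (n : ℝ) ^ b) * (q * C ^ b) ^ t := by
      calc (t : ℝ) ^ t * (C ^ b) ^ t ≤ (Real.exp t * (t.factorial : ℝ)) * (C ^ b) ^ t :=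
            mul_le_mul_of_nonneg_right hA (le_of_lt (pow_pos hCb t))
        _ ≤ (Real.exp t * (2 * (n : ℝ) ^ b * q ^ t)) * (C ^ b) ^ t := by
            apply mul_le_mul_of_nonneg_right _ (le_of_lt (pow_pos hCb t))
            exact mul_le_mul_of_nonneg_left hD (le_of_lt hexp0)
        _ = Real.exp t * (2 * (n : ℝ) ^ b) * (q * C ^ b) ^ t := by rw [mul_pow]; ring
    have h2 : Real.exp t * (2 * (n : ℝ) ^ b) * (q * C ^ b) ^ t
        < Real.exp t * (2 * (n : ℝ) ^ b) * (t : ℝ) ^ t := by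
      apply mul_lt_mul_of_pos_left hlt
      positivity
    have h3 : (C ^ b) ^ t * (t : ℝ) ^ t < Real.exp t * (2 * (n : ℝ) ^ b) * (t : ℝ) ^ t := by
      calc (C ^ b) ^ t * (t : ℝ) ^ t = (t : ℝ) ^ t * (C ^ b) ^ t := by ring
        _ ≤ Real.exp t * (2 * (n : ℝ) ^ b) * (q * C ^ b) ^ t := h1
        _ < Real.exp t * (2 * (n : ℝ) ^ b) * (t : ℝ) ^ t := h2
    exact lt_of_mul_lt_mul_right h3 (le_of_lt htt0)
  -- e^{2bt} ≤ (C^b)^t
  have hF : Real.exp ((2 * b * t : ℕ) : ℝ) ≤ (C ^ b) ^ t := by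
    have h1 : Real.exp 2 ^ b ≤ C ^ b := pow_le_pow_left₀ (le_of_lt (Real.exp_pos 2)) hC b
    have h2 : (Real.exp 2 ^ b) ^ t ≤ (C ^ b) ^ t :=
      pow_le_pow_left₀ (le_of_lt (pow_pos (Real.exp_pos 2) b)) h1 t
    have h3 : (Real.exp 2 ^ b) ^ t = Real.exp ((2 * b * t : ℕ) : ℝ) := by
      rw [← Real.exp_nat_mul, ← Real.exp_nat_mul]
      congr 1
      push_cast
      ring
    rw [h3] at h2
    exact h2
  -- e^{bt} * e^t ≤ e^{2bt}
  have hG : Real.exp ((b * t : ℕ) : ℝ) * Real.exp t ≤ Real.exp ((2 * b * t : ℕ) : ℝ) := by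
    rw [← Real.exp_add]
    apply Real.exp_le_exp.mpr
    have hbt : (t : ℝ) ≤ ((b * t : ℕ) : ℝ) := by
      have : t ≤ b * t := Nat.le_mul_of_pos_left t hb
      exact_mod_cast this
    push_cast at hbt ⊢
    linarith
  -- so e^{bt} < 2 n^b ≤ (2n)^b
  have hI : Real.exp ((b * t : ℕ) : ℝ) < 2 * (n : ℝ) ^ b := by
    have h1 : Real.exp ((b * t : ℕ) : ℝ) * Real.exp t < (2 * (n : ℝ) ^ b) * Real.exp t := by
      calc Real.exp ((b * t : ℕ) : ℝ) * Real.exp t ≤ Real.exp ((2 * b * t : ℕ) : ℝ) := hG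
        _ ≤ (C ^ b) ^ t := hF
        _ < Real.exp t * (2 * (n : ℝ) ^ b) := hE
        _ = (2 * (n : ℝ) ^ b) * Real.exp t := by ring
    exact lt_of_mul_lt_mul_right h1 (le_of_lt hexp0)
  have hJ : Real.exp (t : ℝ) ^ b < (2 * (n : ℝ)) ^ b := by
    have h1 : Real.exp (t : ℝ) ^ b = Real.exp ((b * t : ℕ) : ℝ) := by
      rw [← Real.exp_nat_mul]
      congr 1
      push_cast
      ring
    have h2 : (2 : ℝ) * (n : ℝ) ^ b ≤ (2 * (n : ℝ)) ^ b := by
      rw [mul_pow]
      apply mul_le_mul_of_nonneg_right _ (le_of_lt hnb0)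
      calc (2 : ℝ) = 2 ^ 1 := by norm_num
        _ ≤ 2 ^ b := pow_le_pow_right₀ (by norm_num) hb
    rw [h1]
    exact lt_of_lt_of_le hI h2
  -- but 2n ≤ exp(q C^b) < exp t
  have hK : (2 * (n : ℝ)) ≤ Real.exp (t : ℝ) :=
    le_trans hH1 (Real.exp_le_exp.mpr (le_of_lt hcon))
  have hL : (2 * (n : ℝ)) ^ b ≤ Real.exp (t : ℝ) ^ b :=
    pow_le_pow_left₀ (by positivity) hK b
  exact absurd hJ (not_lt.mpr hL)

end Crest.Agent.Helper5.S0076
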