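import Mathlib
import Crest.Agent.Helper5.S0076.AutHost

/-!
# Row 55 / S0076, conditional infrastructure: the packing bound for `M` disjoint petals (helper5)

`petal_packing`: if a sub-host `A ⊆ E₀` is supported on `B ∪ range g`, where `g : Fin M × D → Fin n`
is injective with range disjoint from `B` (`M` pairwise disjoint petals `g (i, ·)` over the kernel
`B`), and `A` is invariant under every permutation of the petals, then

  `M! ≤ 2 (n)_{|B| + M |D|} p^{|A|}`.

This is "(E) for kernel + petals" in the slot language of helper52's `hstab`; it combines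
`sunflower_of_stab` with `petalPerm`.  Nothing here proves a statement of the milestone table.
-/

set_option autoImplicit false
set_option linter.unusedVariables false

namespace Crest.Agent.Helper5.S0076

open Finset Crest.CombinatoricsR.RandomGraph Crest.Agent.Helper52.PP

theorem petal_packing {n M : ℕ} {D : Type} [Fintype D] [Nonempty D]
    (E₀ : Finset (EdgeSlot n)) (p : ℝ) (hp0 : 0 ≤ p)
    (hstab : ∀ A ⊆ E₀, (((Finset.univ.filter (fun σ : Equiv.Perm (Fin n) =>
        A.map (slotPerm σ).toEmbedding = A)).card : ℕ) : ℝ)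
          ≤ 2 * (n.factorial : ℝ) * p ^ A.card)
    (A : Finset (EdgeSlot n)) (hA : A ⊆ E₀) (B : Finset (Fin n))
    (g : Fin M × D → Fin n) (hg : Function.Injective g)
    (hB : ∀ x ∈ B, x ∉ Set.range g)
    (hsupp : ∀ v ∈ vset A, v ∈ B ∨ v ∈ Set.range g)
    (hinv : ∀ ρ : Equiv.Perm (Fin M), ∀ s ∈ A, slotPerm (petalPerm g hg ρ) s ∈ A) :
    (M.factorial : ℝ)
      ≤ 2 * (n.descFactorial (B.card + M * Fintype.card D) : ℝ) * p ^ A.card := by
  classical
  set R : Finset (Fin n) := (Finset.univ : Finset (Fin M × D)).image g with hR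
  have hRmem : ∀ x, x ∈ R ↔ x ∈ Set.range g := by
    intro x
    rw [hR, Finset.mem_image]
    constructor
    · rintro ⟨q, _, rfl⟩
      exact ⟨q, rfl⟩
    · rintro ⟨q, rfl⟩
      exact ⟨q, Finset.mem_univ _, rfl⟩
  have hRcard : R.card = M * Fintype.card D := by
    rw [hR, Finset.card_image_of_injective _ hg, Finset.card_univ, Fintype.card_prod,
      Fintype.card_fin]
  have hdisj : Disjoint B R := by
    rw [Finset.disjoint_left]
    intro x hxB hxR
    exact hB x hxB ((hRmem x).1 hxR)
  set U : Finset (Fin n) := B ∪ R with hUdef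
  have hUcard : U.card = B.card + M * Fintype.card D := by
    rw [hUdef, Finset.card_union_of_disjoint hdisj, hRcard]
  have hU : vset A ⊆ U := by
    intro v hv
    rw [hUdef, Finset.mem_union]
    rcases hsupp v hv with h | h
    · exact Or.inl h
    · exact Or.inr ((hRmem v).2 h)
  have hfixout : ∀ (ρ : Equiv.Perm (Fin M)) (x : Fin n), x ∉ U → petalPerm g hg ρ x = x := by
    intro ρ x hx
    apply petalPerm_apply_of_not_range
    intro hxr
    apply hx
    rw [hUdef, Finset.mem_union]
    exact Or.inr ((hRmem x).2 hxr)
  have h := sunflower_of_stab E₀ p hp0 hstab A hA U hU M (petalPerm g hg)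
    (petalPerm_injective g hg) hfixout hinv
  rw [hUcard] at h
  exact h

end Crest.Agent.Helper5.S0076
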